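import Mathlib

namespace Vale.Agent.P208

/-- The real separable Hilbert space `ℓ₂`. -/
abbrev Hilb : Type := lp (fun _ : ℕ => ℝ) 2

/-- The subset `X` of `ℓ₂`, with the induced metric, is doubling with constant at most `L`:
every ball of `X` is covered by at most `L` balls of half its radius with centres in `X`. -/
def DoublingWith (X : Set Hilb) (L : ℕ) : Prop :=
  ∀ x ∈ X, ∀ r : ℝ, 0 < r → ∃ C : Finset Hilb, (C : Set Hilb) ⊆ X ∧ C.card ≤ L ∧
    ∀ y ∈ X, dist y x ≤ r → ∃ c ∈ C, dist y c ≤ r / 2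

/-- The subset `X` of `ℓ₂` admits a bi-Lipschitz embedding into the Euclidean space `ℝ^k`
with distortion at most `D`. -/
def EmbedsWith (X : Set Hilb) (k : ℕ) (D : ℝ) : Prop :=
  ∃ a : ℝ, 0 < a ∧ ∃ f : Hilb → EuclideanSpace ℝ (Fin k), ∀ x ∈ X, ∀ y ∈ X,
    a * dist x y ≤ ‖f x - f y‖ ∧ ‖f x - f y‖ ≤ D * (a * dist x y)

/-- A subset of a doubling set with constant `L` is doubling with constant `L * L`. -/
theorem DoublingWith.subset {X F : Set Hilb} {L : ℕ} (h : DoublingWith X L) (hF : F ⊆ X) :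
    DoublingWith F (L * L) := by
  classical
  intro x hx r hr
  obtain ⟨C, hCX, hCL, hC⟩ := h x (hF hx) r hr
  have hr2 : 0 < r / 2 := by linarith
  choose! C' hC'X hC'L hC' using fun c (hc : c ∈ X) => h c hc (r / 2) hr2
  -- the big family of small centres
  let B : Finset Hilb := C.biUnion C'
  have hBcard : B.card ≤ L * L := by
    calc B.card ≤ ∑ c ∈ C, (C' c).card := Finset.card_biUnion_le
      _ ≤ ∑ c ∈ C, L := Finset.sum_le_sum fun c hc => hC'L c (hCX hc)
      _ = C.card * L := by simp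
      _ ≤ L * L := Nat.mul_le_mul_right _ hCL
  let B' : Finset Hilb := B.filter fun b => ∃ y ∈ F, dist y b ≤ r / 4
  have hpick : ∀ b ∈ B', ∃ y ∈ F, dist y b ≤ r / 4 := fun b hb => (Finset.mem_filter.1 hb).2
  choose! g hgF hg using hpick
  refine ⟨B'.image g, ?_, ?_, ?_⟩
  · intro z hz
    obtain ⟨b, hb, rfl⟩ := Finset.mem_image.1 (Finset.mem_coe.1 hz)
    exact hgF b hb
  · exact (Finset.card_image_le.trans (Finset.card_filter_le _ _)).trans hBcard
  · intro y hy hyx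
    obtain ⟨c, hc, hyc⟩ := hC y (hF hy) hyx
    obtain ⟨b, hb, hyb⟩ := hC' c (hCX hc) y (hF hy) hyc
    have hyb' : dist y b ≤ r / 4 := by linarith
    have hbB : b ∈ B' := Finset.mem_filter.2 ⟨Finset.mem_biUnion.2 ⟨c, hc, hb⟩, y, hy, hyb'⟩
    refine ⟨g b, Finset.mem_image_of_mem _ hbB, ?_⟩
    have := hg b hbB
    calc dist y (g b) ≤ dist y b + dist b (g b) := dist_triangle _ _ _
      _ ≤ r / 4 + r / 4 := add_le_add hyb' (by rw [dist_comm]; exact this)
      _ = r / 2 := by ring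

theorem EmbedsWith.subset {X F : Set Hilb} {k : ℕ} {D : ℝ} (h : EmbedsWith X k D) (hF : F ⊆ X) :
    EmbedsWith F k D := by
  obtain ⟨a, ha, f, hf⟩ := h
  exact ⟨a, ha, f, fun x hx y hy => hf x (hF hx) y (hF hy)⟩

theorem EmbedsWith.mono {X : Set Hilb} {k k' : ℕ} {D D' : ℝ} (h : EmbedsWith X k D)
    (hk : k ≤ k') (hD : D ≤ D') : EmbedsWith X k' D' := by
  obtain ⟨a, ha, f, hf⟩ := h
  -- isometric inclusion
  let ι : EuclideanSpace ℝ (Fin k) → EuclideanSpace ℝ (Fin k') := fun v =>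
    WithLp.toLp 2 fun i => if h : (i : ℕ) < k then v ⟨i, h⟩ else 0
  have hι : ∀ v w, ‖ι v - ι w‖ = ‖v - w‖ := by
    intro v w
    rw [EuclideanSpace.norm_eq, EuclideanSpace.norm_eq]
    congr 1
    have h1 : ∀ i : Fin k', ‖(ι v - ι w) i‖ ^ 2
        = if h : (i : ℕ) < k then ‖(v - w) ⟨i, h⟩‖ ^ 2 else 0 := by
      intro i
      by_cases h : (i : ℕ) < k
      · simp [ι, h]
      · simp [ι, h]
    rw [Finset.sum_congr rfl fun i _ => h1 i]
    symm
    refine Finset.sum_bij_ne_zero (fun (i : Fin k) _ _ => Fin.castLE hk i) ?_ ?_ ?_ ?_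
    · intro i _ _; exact Finset.mem_univ _
    · intro i _ _ j _ _ hij
      exact (Fin.castLE_injective hk) hij
    · intro i _ hi
      by_cases h : (i : ℕ) < k
      · refine ⟨⟨i, h⟩, Finset.mem_univ _, ?_, ?_⟩
        · simpa [h] using hi
        · ext; simp
      · simp [h] at hi
    · intro i _ _
      simp
  refine ⟨a, ha, fun x => ι (f x), fun x hx y hy => ?_⟩
  rw [hι]
  refine ⟨(hf x hx y hy).1, (hf x hx y hy).2.trans ?_⟩
  exact mul_le_mul_of_nonneg_right hD (mul_nonneg ha.le dist_nonneg)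

open Filter Topology in
/-- Compactness: it suffices to embed finite subsets. -/
theorem embedsWith_of_finite {X : Set Hilb} {k : ℕ} {D : ℝ}
    (h : ∀ F : Finset Hilb, (F : Set Hilb) ⊆ X → EmbedsWith F k D) : EmbedsWith X k D := by
  classical
  rcases X.eq_empty_or_nonempty with rfl | ⟨x₀, hx₀⟩
  · exact ⟨1, one_pos, fun _ => 0, fun x hx => absurd hx (by simp)⟩
  -- finite subsets of the subtype
  have key : ∀ F : Finset X, ∃ g : X → EuclideanSpace ℝ (Fin k),
      (∀ x ∈ F, ∀ y ∈ F, dist (x : Hilb) y ≤ ‖g x - g y‖ ∧ ‖g x - g y‖ ≤ D * dist (x : Hilb) y) ∧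
      (⟨x₀, hx₀⟩ ∈ F → g ⟨x₀, hx₀⟩ = 0) := by
    intro F
    obtain ⟨a, ha, f, hf⟩ := h (F.image Subtype.val) (by
      intro z hz
      obtain ⟨b, _, rfl⟩ := Finset.mem_image.1 (Finset.mem_coe.1 hz)
      exact b.2)
    refine ⟨fun x => a⁻¹ • (f x - f x₀), ?_, ?_⟩
    · intro x hx y hy
      have hxy := hf x (Finset.mem_coe.2 (Finset.mem_image_of_mem _ hx)) y
        (Finset.mem_coe.2 (Finset.mem_image_of_mem _ hy))
      have e : a⁻¹ • (f x - f x₀) - a⁻¹ • (f y - f x₀) = a⁻¹ • (f x - f y) := by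
        rw [← smul_sub]; congr 1; abel
      have hai : 0 < a⁻¹ := inv_pos.2 ha
      rw [e, norm_smul, Real.norm_eq_abs, abs_of_pos hai]
      constructor
      · calc dist (x : Hilb) y = a⁻¹ * (a * dist (x : Hilb) y) := by field_simp
          _ ≤ a⁻¹ * ‖f x - f y‖ := mul_le_mul_of_nonneg_left hxy.1 hai.le
      · calc a⁻¹ * ‖f x - f y‖ ≤ a⁻¹ * (D * (a * dist (x : Hilb) y)) :=
              mul_le_mul_of_nonneg_left hxy.2 hai.le
          _ = D * dist (x : Hilb) y := by field_simp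
    · intro _; simp
  choose g hg hg0 using key
  let U : Ultrafilter (Finset X) := Ultrafilter.of atTop
  have hU : (U : Filter (Finset X)) ≤ atTop := Ultrafilter.of_le _
  have hmem : ∀ x : X, ∀ᶠ F : Finset X in (U : Filter (Finset X)), x ∈ F := by
    intro x
    apply hU
    filter_upwards [eventually_ge_atTop ({x} : Finset X)] with F hF
    exact hF (Finset.mem_singleton_self x)
  have hlim : ∀ x : X, ∃ v : EuclideanSpace ℝ (Fin k),
      Tendsto (fun F => g F x) (U : Filter (Finset X)) (𝓝 v) := by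
    intro x
    have hev : ∀ᶠ F : Finset X in (U : Filter (Finset X)),
        g F x ∈ Metric.closedBall (0 : EuclideanSpace ℝ (Fin k)) (D * dist (x : Hilb) x₀) := by
      filter_upwards [hmem x, hmem ⟨x₀, hx₀⟩] with F hF hF0
      rw [mem_closedBall_zero_iff]
      have := (hg F x hF ⟨x₀, hx₀⟩ hF0).2
      rwa [hg0 F hF0, sub_zero] at this
    have hcomp := isCompact_closedBall (0 : EuclideanSpace ℝ (Fin k)) (D * dist (x : Hilb) x₀)
    obtain ⟨v, _, hv⟩ := hcomp.ultrafilter_le_nhds (U.map fun F => g F x) (by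
      rw [le_principal_iff]; exact hev)
    exact ⟨v, hv⟩
  choose f hf using hlim
  refine ⟨1, one_pos, fun x => if hx : x ∈ X then f ⟨x, hx⟩ else 0, fun x hx y hy => ?_⟩
  have hnorm : Tendsto (fun F => ‖g F ⟨x, hx⟩ - g F ⟨y, hy⟩‖) (U : Filter (Finset X))
      (𝓝 ‖f ⟨x, hx⟩ - f ⟨y, hy⟩‖) := ((hf ⟨x, hx⟩).sub (hf ⟨y, hy⟩)).norm
  simp only [hx, hy, dif_pos, one_mul]
  constructor
  · refine ge_of_tendsto hnorm ?_
    filter_upwards [hmem ⟨x, hx⟩, hmem ⟨y, hy⟩] with F h1 h2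
    exact (hg F _ h1 _ h2).1
  · refine le_of_tendsto hnorm ?_
    filter_upwards [hmem ⟨x, hx⟩, hmem ⟨y, hy⟩] with F h1 h2
    exact (hg F _ h1 _ h2).2

end Vale.Agent.P208
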