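import Vale.Agent.P208.Basic

namespace Vale.Agent.P208

open Filter Topology

/-- a unit vector -/
noncomputable def e0 : Hilb := lp.single 2 0 (1 : ℝ)

theorem norm_e0 : ‖e0‖ = 1 := by
  unfold e0
  rw [lp.norm_single (by norm_num)]
  simp

/-- the scales -/
noncomputable def c (n : ℕ) : ℝ := (1 / 4 : ℝ) ^ n

theorem c_pos (n : ℕ) : 0 < c n := by unfold c; positivity

theorem c_succ_le {m n : ℕ} (h : m < n) : c n ≤ c m / 4 := by
  unfold c
  have h1 : (1 / 4 : ℝ) ^ n ≤ (1 / 4 : ℝ) ^ (m + 1) :=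
    pow_le_pow_of_le_one (by norm_num) (by norm_num) h
  rw [pow_succ] at h1
  linarith

/-- The glued set: `{0}` together with the pieces `Y n`. -/
def glue (Y : ℕ → Set Hilb) : Set Hilb := {0} ∪ ⋃ n, Y n

section
variable {Y : ℕ → Set Hilb} (hY : ∀ n, ∀ y ∈ Y n, dist y (c n • e0) ≤ c n / 8)
include hY

theorem norm_le_of_mem {n : ℕ} {y : Hilb} (hy : y ∈ Y n) : ‖y‖ ≤ 9 / 8 * c n := by
  have h1 := hY n y hy
  have h2 : ‖c n • e0‖ = c n := by
    rw [norm_smul, norm_e0, mul_one, Real.norm_eq_abs, abs_of_pos (c_pos n)]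
  have h3 : ‖y‖ ≤ ‖y - c n • e0‖ + ‖c n • e0‖ := by
    simpa using norm_add_le (y - c n • e0) (c n • e0)
  rw [dist_eq_norm] at h1
  linarith

theorem le_norm_of_mem {n : ℕ} {y : Hilb} (hy : y ∈ Y n) : 7 / 8 * c n ≤ ‖y‖ := by
  have h1 := hY n y hy
  have h2 : ‖c n • e0‖ = c n := by
    rw [norm_smul, norm_e0, mul_one, Real.norm_eq_abs, abs_of_pos (c_pos n)]
  have h3 : ‖c n • e0‖ ≤ ‖c n • e0 - y‖ + ‖y‖ := by
    simpa using norm_add_le (c n • e0 - y) y
  rw [dist_comm, dist_eq_norm] at h1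
  linarith

theorem dist_le_of_mem {n : ℕ} {y z : Hilb} (hy : y ∈ Y n) (hz : z ∈ Y n) :
    dist y z ≤ c n / 4 := by
  have h1 := hY n y hy
  have h2 := hY n z hz
  have := dist_triangle_right y z (c n • e0)
  linarith

theorem le_dist_of_lt {m n : ℕ} (h : m < n) {y z : Hilb} (hy : y ∈ Y m) (hz : z ∈ Y n) :
    19 / 32 * c m ≤ dist y z := by
  have h1 := le_norm_of_mem hY hy
  have h2 := norm_le_of_mem hY hz
  have h3 := c_succ_le h
  have h4 : ‖y‖ ≤ ‖y - z‖ + ‖z‖ := by simpa using norm_add_le (y - z) z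
  rw [dist_eq_norm]
  linarith

theorem le_dist_of_ne {m n : ℕ} (h : m ≠ n) {y z : Hilb} (hy : y ∈ Y m) (hz : z ∈ Y n) :
    19 / 32 * c m ≤ dist y z ∧ 19 / 32 * c n ≤ dist y z := by
  rcases lt_or_gt_of_ne h with h | h
  · have h1 := le_dist_of_lt hY h hy hz
    have h2 := c_succ_le h
    have h3 := c_pos m
    exact ⟨h1, by linarith⟩
  · have h1 := le_dist_of_lt hY h hz hy
    have h2 := c_succ_le h
    have h3 := c_pos n
    rw [dist_comm] at h1
    exact ⟨by linarith, h1⟩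

theorem mem_glue_cases {y : Hilb} (hy : y ∈ glue Y) : y = 0 ∨ ∃ n, y ∈ Y n := by
  rcases hy with h | h
  · left; simpa using h
  · right; simpa using h

/-- the glued set is doubling -/
theorem doubling_glue {L : ℕ} (hL : ∀ n, DoublingWith (Y n) L) (hL3 : 3 ≤ L) :
    DoublingWith (glue Y) L := by
  classical
  intro x hx r hr
  have h0 : (0 : Hilb) ∈ glue Y := Or.inl rfl
  have hsub : ∀ n, Y n ⊆ glue Y := fun n y hy => Or.inr (Set.mem_iUnion.2 ⟨n, hy⟩)
  -- the general large ball situation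
  have big : ∀ x ∈ glue Y, ∀ P : Set Hilb,
      (∀ y ∈ glue Y, y ∉ P → dist y x ≤ r → ∀ j, y ∈ Y j → c j ≤ 32 / 19 * r) →
      (∀ y ∈ P, y ∈ glue Y) → (∀ y ∈ P, ∀ z ∈ P, dist y z ≤ r / 2) →
      ∃ C : Finset Hilb, (C : Set Hilb) ⊆ glue Y ∧ C.card ≤ L ∧
      ∀ y ∈ glue Y, dist y x ≤ r → ∃ c ∈ C, dist y c ≤ r / 2 := by
    intro x hx P hP hPX hPd
    let S : Set Hilb := {y | y ∈ glue Y ∧ dist y x ≤ r ∧ r / 2 < ‖y‖ ∧ y ∉ P}
    have hS : ∀ y ∈ S, ∀ z ∈ S, dist y z ≤ r / 2 := by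
      rintro y ⟨hy, hyx, hyn, hyP⟩ z ⟨hz, hzx, hzn, hzP⟩
      rcases mem_glue_cases hY hy with rfl | ⟨j, hj⟩
      · rw [norm_zero] at hyn; linarith
      rcases mem_glue_cases hY hz with rfl | ⟨k, hk⟩
      · rw [norm_zero] at hzn; linarith
      have hcj := hP y hy hyP hyx j hj
      have hck := hP z hz hzP hzx k hk
      have hnj := norm_le_of_mem hY hj
      have hnk := norm_le_of_mem hY hk
      rcases lt_trichotomy j k with h | h | h
      · have := c_succ_le h
        linarith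
      · subst h
        have := dist_le_of_mem hY hj hk
        linarith
      · have := c_succ_le h
        linarith
    -- representatives
    have repS : ∃ CS : Finset Hilb, (CS : Set Hilb) ⊆ glue Y ∧ CS.card ≤ 1 ∧
        ∀ y ∈ S, ∃ c ∈ CS, dist y c ≤ r / 2 := by
      rcases S.eq_empty_or_nonempty with h | ⟨s, hs⟩
      · exact ⟨∅, by simp, by simp, fun y hy => by rw [h] at hy; exact absurd hy (by simp)⟩
      · refine ⟨{s}, ?_, by simp, fun y hy => ⟨s, by simp, hS y hy s hs⟩⟩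
        intro z hz
        rw [Finset.coe_singleton, Set.mem_singleton_iff] at hz
        rw [hz]; exact hs.1
    have repP : ∃ CP : Finset Hilb, (CP : Set Hilb) ⊆ glue Y ∧ CP.card ≤ 1 ∧
        ∀ y ∈ P, ∃ c ∈ CP, dist y c ≤ r / 2 := by
      rcases P.eq_empty_or_nonempty with h | ⟨s, hs⟩
      · exact ⟨∅, by simp, by simp, fun y hy => by rw [h] at hy; exact absurd hy (by simp)⟩
      · refine ⟨{s}, ?_, by simp, fun y hy => ⟨s, by simp, hPd y hy s hs⟩⟩
        intro z hz
        rw [Finset.coe_singleton, Set.mem_singleton_iff] at hz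
        rw [hz]; exact hPX s hs
    obtain ⟨CS, hCS, hCSc, hCScov⟩ := repS
    obtain ⟨CP, hCP, hCPc, hCPcov⟩ := repP
    refine ⟨{0} ∪ (CS ∪ CP), ?_, ?_, ?_⟩
    · intro z hz
      simp only [Finset.coe_union, Finset.coe_singleton, Set.mem_union, Set.mem_singleton_iff,
        Finset.mem_coe] at hz
      rcases hz with rfl | hz | hz
      · exact h0
      · exact hCS (Finset.mem_coe.2 hz)
      · exact hCP (Finset.mem_coe.2 hz)
    · have e1 : ({0} ∪ (CS ∪ CP) : Finset Hilb).card ≤ ({0} : Finset Hilb).card + (CS ∪ CP).card :=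
        Finset.card_union_le _ _
      have e2 : (CS ∪ CP).card ≤ CS.card + CP.card := Finset.card_union_le _ _
      have e3 : ({0} : Finset Hilb).card = 1 := Finset.card_singleton _
      omega
    · intro y hy hyx
      by_cases hn : ‖y‖ ≤ r / 2
      · exact ⟨0, by simp, by rwa [dist_zero_right]⟩
      · by_cases hyP : y ∈ P
        · obtain ⟨c, hc, hcd⟩ := hCPcov y hyP
          exact ⟨c, by simp [hc], hcd⟩
        · obtain ⟨c, hc, hcd⟩ := hCScov y ⟨hy, hyx, not_le.1 hn, hyP⟩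
          exact ⟨c, by simp [hc], hcd⟩
  rcases mem_glue_cases hY hx with rfl | ⟨n, hn⟩
  · -- centre 0
    refine big 0 h0 ∅ ?_ (by simp) (by simp)
    intro y hy _ hyx j hj
    rw [dist_zero_right] at hyx
    have := le_norm_of_mem hY hj
    linarith
  · by_cases hrn : r < c n / 2
    · obtain ⟨C, hCY, hCL, hC⟩ := hL n x hn r hr
      refine ⟨C, fun z hz => hsub n (hCY hz), hCL, ?_⟩
      intro y hy hyx
      rcases mem_glue_cases hY hy with rfl | ⟨m, hm⟩
      · rw [dist_comm, dist_zero_right] at hyx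
        have := le_norm_of_mem hY hn
        have := c_pos n
        linarith
      · by_cases hmn : m = n
        · subst hmn
          exact hC y hm hyx
        · have := (le_dist_of_ne hY hmn hm hn).2
          have := c_pos n
          linarith
    · have hrn' : c n / 2 ≤ r := not_lt.1 hrn
      refine big x hx (Y n) ?_ (fun y hy => hsub n hy) ?_
      · intro y _ hyn hyx j hj
        by_cases hjn : j = n
        · subst hjn; exact absurd hj hyn
        · have := (le_dist_of_ne hY hjn hj hn).1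
          linarith
      · intro y hy z hz
        have := dist_le_of_mem hY hy hz
        linarith

/-- outside a ball around `0`, the glued set is finite. -/
theorem finite_glue_far (hfin : ∀ n, (Y n).Finite) {ε : ℝ} (hε : 0 < ε) :
    (glue Y ∩ {y | ε ≤ ‖y‖}).Finite := by
  obtain ⟨N, hN⟩ : ∃ N : ℕ, (1 / 4 : ℝ) ^ N < ε / 2 := exists_pow_lt_of_lt_one (by linarith) (by norm_num)
  refine Set.Finite.subset (Set.Finite.biUnion (Set.finite_lt_nat N) fun n _ => hfin n) ?_
  rintro y ⟨hy, hye⟩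
  simp only [Set.mem_ofPred_eq] at hye
  rcases mem_glue_cases hY hy with rfl | ⟨n, hn⟩
  · rw [norm_zero] at hye; linarith
  · refine Set.mem_biUnion (x := n) ?_ hn
    by_contra hcon
    have hNn : N ≤ n := not_lt.1 hcon
    have h1 : c n ≤ (1 / 4 : ℝ) ^ N := pow_le_pow_of_le_one (by norm_num) (by norm_num) hNn
    have h2 := norm_le_of_mem hY hn
    linarith

theorem compact_glue (hfin : ∀ n, (Y n).Finite) : IsCompact (glue Y) := by
  rw [isCompact_iff_ultrafilter_le_nhds]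
  intro U hU
  by_cases h : ∀ ε > 0, Metric.ball (0 : Hilb) ε ∈ U
  · refine ⟨0, Or.inl rfl, ?_⟩
    intro s hs
    obtain ⟨ε, hε, hεs⟩ := Metric.mem_nhds_iff.1 hs
    exact mem_of_superset (h ε hε) hεs
  · push Not at h
    obtain ⟨ε, hε, hεU⟩ := h
    have hU' : (Metric.ball (0 : Hilb) ε)ᶜ ∈ U := Ultrafilter.compl_mem_iff_notMem.2 hεU
    have hmem : glue Y ∩ {y | ε ≤ ‖y‖} ∈ U := by
      filter_upwards [le_principal_iff.1 hU, hU'] with y h1 h2
      refine ⟨h1, ?_⟩
      simpa using h2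
    have hc : IsCompact (glue Y ∩ {y | ε ≤ ‖y‖}) := (finite_glue_far hY hfin hε).isCompact
    obtain ⟨y, hy, hyU⟩ := hc.ultrafilter_le_nhds U (le_principal_iff.2 hmem)
    exact ⟨y, hy.1, hyU⟩

theorem countable_glue (hfin : ∀ n, (Y n).Finite) : (glue Y).Countable :=
  (Set.countable_singleton 0).union (Set.countable_iUnion fun n => (hfin n).countable)

theorem isolated_glue (hfin : ∀ n, (Y n).Finite) :
    ∀ y ∈ glue Y, y ≠ 0 → ∃ ε > 0, ∀ z ∈ glue Y, dist z y < ε → z = y := by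
  intro y hy hy0
  have hn : 0 < ‖y‖ := norm_pos_iff.2 hy0
  have hF := finite_glue_far hY hfin (ε := ‖y‖ / 2) (by linarith)
  -- the finite set without y is closed
  have hcl : IsClosed ((glue Y ∩ {z | ‖y‖ / 2 ≤ ‖z‖}) \ {y}) := (hF.subset Set.sdiff_subset).isClosed
  have hyn : y ∈ ((glue Y ∩ {z | ‖y‖ / 2 ≤ ‖z‖}) \ {y})ᶜ := by simp
  obtain ⟨ε, hε, hball⟩ := Metric.isOpen_iff.1 hcl.isOpen_compl y hyn
  refine ⟨min ε (‖y‖ / 2), lt_min hε (by linarith), ?_⟩
  intro z hz hzy
  by_contra hne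
  have h1 : z ∈ ((glue Y ∩ {z | ‖y‖ / 2 ≤ ‖z‖}) \ {y})ᶜ := hball (lt_of_lt_of_le hzy (min_le_left _ _))
  apply h1
  refine ⟨⟨hz, ?_⟩, by simpa using hne⟩
  have h2 : dist z y < ‖y‖ / 2 := lt_of_lt_of_le hzy (min_le_right _ _)
  have h3 : ‖y‖ ≤ ‖y - z‖ + ‖z‖ := by simpa using norm_add_le (y - z) z
  rw [dist_comm, dist_eq_norm] at h2
  simp only [Set.mem_ofPred_eq]
  linarith

end

/-- affine similarity -/
theorem DoublingWith.image {X : Set Hilb} {L : ℕ} (h : DoublingWith X L) {s : ℝ} (hs : 0 < s)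
    (u v : Hilb) : DoublingWith ((fun x => v + s • (x - u)) '' X) L := by
  classical
  have hd : ∀ x y : Hilb, dist (v + s • (x - u)) (v + s • (y - u)) = s * dist x y := by
    intro x y
    rw [dist_add_left, dist_smul₀, Real.norm_eq_abs, abs_of_pos hs]
    simp
  rintro _ ⟨x, hx, rfl⟩ r hr
  obtain ⟨C, hCX, hCL, hC⟩ := h x hx (r / s) (by positivity)
  refine ⟨C.image fun x => v + s • (x - u), ?_, Finset.card_image_le.trans hCL, ?_⟩
  · intro z hz
    obtain ⟨b, hb, rfl⟩ := Finset.mem_image.1 (Finset.mem_coe.1 hz)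
    exact ⟨b, hCX hb, rfl⟩
  · rintro _ ⟨y, hy, rfl⟩ hyx
    rw [hd] at hyx
    obtain ⟨c, hc, hcd⟩ := hC y hy (by rw [le_div_iff₀ hs]; linarith)
    refine ⟨_, Finset.mem_image_of_mem _ hc, ?_⟩
    rw [hd]
    calc s * dist y c ≤ s * (r / s / 2) := mul_le_mul_of_nonneg_left hcd hs.le
      _ = r / 2 := by field_simp

theorem EmbedsWith.of_image {X : Set Hilb} {k : ℕ} {D : ℝ} {s : ℝ} (hs : 0 < s)
    (u v : Hilb) (h : EmbedsWith ((fun x => v + s • (x - u)) '' X) k D) : EmbedsWith X k D := by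
  have hd : ∀ x y : Hilb, dist (v + s • (x - u)) (v + s • (y - u)) = s * dist x y := by
    intro x y
    rw [dist_add_left, dist_smul₀, Real.norm_eq_abs, abs_of_pos hs]
    simp
  obtain ⟨a, ha, f, hf⟩ := h
  refine ⟨a * s, mul_pos ha hs, fun x => f (v + s • (x - u)), fun x hx y hy => ?_⟩
  have := hf _ ⟨x, hx, rfl⟩ _ ⟨y, hy, rfl⟩
  simp only at this
  rw [hd] at this
  rw [mul_assoc]
  exact this

/-- If finite `L`-doubling sets do not embed uniformly then there is one compact countable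
doubling set, all of whose nonzero points are isolated, which does not embed. -/
theorem exists_bad {L : ℕ} (hL3 : 3 ≤ L)
    (h : ∀ n : ℕ, ∃ F : Set Hilb, F.Finite ∧ DoublingWith F L ∧ ¬ EmbedsWith F n n) :
    ∃ X : Set Hilb, DoublingWith X L ∧ IsCompact X ∧ X.Countable ∧
      (∀ y ∈ X, y ≠ 0 → ∃ ε > 0, ∀ z ∈ X, dist z y < ε → z = y) ∧
      ∀ k : ℕ, ∀ D : ℝ, ¬ EmbedsWith X k D := by
  choose F hFfin hFd hFe using h
  have hne : ∀ n, (F n).Nonempty := by
    intro n
    by_contra hcon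
    rw [Set.not_nonempty_iff_eq_empty] at hcon
    apply hFe n
    rw [hcon]
    exact ⟨1, one_pos, fun _ => 0, fun x hx => absurd hx (by simp)⟩
  choose u hu using hne
  have hR : ∀ n, ∃ R : ℝ, 0 < R ∧ ∀ x ∈ F n, dist x (u n) ≤ R := by
    intro n
    obtain ⟨R, hR⟩ := (hFfin n).isBounded.subset_closedBall (u n)
    exact ⟨max R 1, lt_max_of_lt_right one_pos, fun x hx => (hR hx).trans (le_max_left _ _)⟩
  choose R hRpos hR using hR
  let s : ℕ → ℝ := fun n => c n / 8 / R n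
  have hs : ∀ n, 0 < s n := fun n => div_pos (div_pos (c_pos n) (by norm_num)) (hRpos n)
  let Y : ℕ → Set Hilb := fun n => (fun x => c n • e0 + s n • (x - u n)) '' F n
  have hY : ∀ n, ∀ y ∈ Y n, dist y (c n • e0) ≤ c n / 8 := by
    rintro n _ ⟨x, hx, rfl⟩
    have e : dist (c n • e0 + s n • (x - u n)) (c n • e0) = s n * dist x (u n) := by
      rw [dist_eq_norm, dist_eq_norm, add_sub_cancel_left, norm_smul, Real.norm_eq_abs,
        abs_of_pos (hs n)]
    rw [e]
    calc s n * dist x (u n) ≤ s n * R n := mul_le_mul_of_nonneg_left (hR n x hx) (hs n).le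
      _ = c n / 8 := by simp only [s]; field_simp [(hRpos n).ne']
  have hYfin : ∀ n, (Y n).Finite := fun n => (hFfin n).image _
  refine ⟨glue Y, doubling_glue hY (fun n => (hFd n).image (hs n) _ _) hL3,
    compact_glue hY hYfin, countable_glue hY hYfin, isolated_glue hY hYfin, ?_⟩
  intro k D hemb
  obtain ⟨n, hn⟩ := exists_nat_ge (max (k : ℝ) D)
  have hk : k ≤ n := by exact_mod_cast (le_max_left _ _).trans hn
  have hD : D ≤ n := (le_max_right _ _).trans hn
  apply hFe n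
  have h1 : EmbedsWith (Y n) k D :=
    hemb.subset fun y hy => Or.inr (Set.mem_iUnion.2 ⟨n, hy⟩)
  exact (h1.of_image (hs n) _ _).mono hk hD

end Vale.Agent.P208
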